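import Mathlib.Analysis.CStarAlgebra.ContinuousFunctionalCalculus.Order
import Mathlib.Analysis.CStarAlgebra.ContinuousFunctionalCalculus.Commute
import Mathlib.Analysis.CStarAlgebra.ContinuousFunctionalCalculus.Isometric
import Mathlib.Analysis.CStarAlgebra.ContinuousFunctionalCalculus.Instances
import Mathlib.Analysis.CStarAlgebra.Unitization
import Mathlib.Tactic
import Vale.Agent.P133.R2.H307.Spec2

namespace Vale.Agent.P133.R2.H342

/-- the tent of height one around `j`, in units of `η` -/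
noncomputable def tent (η : ℝ) (j : ℤ) (t : ℝ) : ℝ := max 0 (1 - |t / η - j|)

theorem tent_cont (η : ℝ) (j : ℤ) : Continuous (tent η j) := by
  unfold tent; fun_prop

theorem tent_nonneg (η : ℝ) (j : ℤ) (t : ℝ) : 0 ≤ tent η j t := le_max_left _ _

theorem tent_le_one (η : ℝ) (j : ℤ) (t : ℝ) : tent η j t ≤ 1 :=
  max_le zero_le_one (by have := abs_nonneg (t / η - j); linarith)

theorem tent_ne (η : ℝ) (j : ℤ) (t : ℝ) (h : tent η j t ≠ 0) : |t / η - j| < 1 := by
  by_contra hc
  exact h (max_eq_left (by linarith [not_lt.mp hc]))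

theorem tent_sq_abs {η : ℝ} (hη : 0 < η) (j : ℤ) (t : ℝ) :
    |t - j * η| * tent η j t ^ 2 ≤ η * tent η j t ^ 2 := by
  by_cases h : tent η j t = 0
  · rw [h]; simp
  · have h1 := tent_ne η j t h
    have h2 : t - j * η = (t / η - j) * η := by field_simp
    have h3 : |t - j * η| ≤ η := by
      rw [h2, abs_mul, abs_of_pos hη]; nlinarith
    exact mul_le_mul_of_nonneg_right h3 (sq_nonneg _)

theorem tent_sum_sq (η : ℝ) (N : ℕ) (t : ℝ) :
    ∑ i : Fin (2 * N + 1), tent η ((i : ℤ) - N) t ^ 2 ≤ 2 := by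
  classical
  set S : Finset (Fin (2 * N + 1)) :=
    Finset.univ.filter fun i => tent η ((i : ℤ) - N) t ≠ 0 with hS
  have h1 : ∑ i : Fin (2 * N + 1), tent η ((i : ℤ) - N) t ^ 2
      = ∑ i ∈ S, tent η ((i : ℤ) - N) t ^ 2 := by
    symm
    apply Finset.sum_subset (Finset.subset_univ _)
    intro i _ hi
    have : tent η ((i : ℤ) - N) t = 0 := by
      by_contra hc
      exact hi (Finset.mem_filter.mpr ⟨Finset.mem_univ _, hc⟩)
    rw [this]; simp
  have h2 : ∑ i ∈ S, tent η ((i : ℤ) - N) t ^ 2 ≤ S.card • (1 : ℝ) := by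
    apply Finset.sum_le_card_nsmul
    intro i _
    have a1 := tent_nonneg η ((i : ℤ) - N) t
    have a2 := tent_le_one η ((i : ℤ) - N) t
    nlinarith
  have h3 : S.card ≤ 2 := by
    have : S.card ≤ ({⌊t / η⌋, ⌊t / η⌋ + 1} : Finset ℤ).card := by
      apply Finset.card_le_card_of_injOn (fun i : Fin (2 * N + 1) => ((i : ℕ) : ℤ) - N)
      · intro i hi
        have hi' : tent η ((i : ℤ) - N) t ≠ 0 := (Finset.mem_filter.mp hi).2
        have h4 := abs_lt.mp (tent_ne _ _ _ hi')
        have h5 := Int.floor_le (t / η)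
        have h6 := Int.lt_floor_add_one (t / η)
        have h7 : ((i : ℕ) : ℤ) - N < ⌊t / η⌋ + 2 := by
          have : ((((i : ℕ) : ℤ) - N : ℤ) : ℝ) < ((⌊t / η⌋ + 2 : ℤ) : ℝ) := by
            push_cast; push_cast at h4; linarith [h4.1, h4.2]
          exact_mod_cast this
        have h8 : ⌊t / η⌋ - 1 < ((i : ℕ) : ℤ) - N := by
          have : ((⌊t / η⌋ - 1 : ℤ) : ℝ) < ((((i : ℕ) : ℤ) - N : ℤ) : ℝ) := by
            push_cast; push_cast at h4; linarith [h4.1, h4.2]
          exact_mod_cast this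
        simp only [Finset.coe_insert, Finset.coe_singleton, Set.mem_insert_iff,
          Set.mem_singleton_iff]
        omega
      · intro i _ j _ hij
        have : ((i : ℕ) : ℤ) = ((j : ℕ) : ℤ) := by simpa using hij
        exact Fin.ext (by exact_mod_cast this)
    exact this.trans (Finset.card_le_two)
  rw [h1]
  refine h2.trans ?_
  simp only [nsmul_eq_mul, mul_one]
  exact_mod_cast h3

theorem tent_sum_four {η : ℝ} (hη : 0 < η) (N : ℕ) (t : ℝ) (ht : |t| ≤ N * η) :
    1 / 16 ≤ ∑ i : Fin (2 * N + 1), tent η ((i : ℤ) - N) t ^ 4 := by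
  classical
  have hu : |t / η| ≤ N := by
    rw [abs_div, abs_of_pos hη]
    exact (div_le_iff₀ hη).mpr ht
  set k : ℤ := round (t / η) with hk
  have hk1 : |t / η - k| ≤ 1 / 2 := abs_sub_round _
  have h2 := abs_le.mp hu
  have h3 := abs_le.mp hk1
  have hk2 : k ≤ N := by
    have : (k : ℝ) < ((N + 1 : ℤ) : ℝ) := by push_cast; linarith [h2.2, h3.1]
    have : k < (N : ℤ) + 1 := by exact_mod_cast this
    omega
  have hk3 : -(N : ℤ) ≤ k := by
    have : ((-(N : ℤ) - 1 : ℤ) : ℝ) < (k : ℝ) := by push_cast; linarith [h2.1, h3.2]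
    have : -(N : ℤ) - 1 < k := by exact_mod_cast this
    omega
  have hlt : (k + N).toNat < 2 * N + 1 := by omega
  let i0 : Fin (2 * N + 1) := ⟨(k + N).toNat, hlt⟩
  have hi0 : ((i0 : ℕ) : ℤ) - N = k := by
    show (((k + N).toNat : ℕ) : ℤ) - N = k
    omega
  have h5 : tent η ((i0 : ℤ) - N) t ^ 4 ≤ ∑ i : Fin (2 * N + 1), tent η ((i : ℤ) - N) t ^ 4 :=
    Finset.single_le_sum (f := fun i : Fin (2 * N + 1) => tent η ((i : ℤ) - N) t ^ 4)
      (fun i _ => by positivity) (Finset.mem_univ i0)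
  have h6 : 1 / 2 ≤ tent η ((i0 : ℤ) - N) t := by
    rw [hi0]
    exact le_max_of_le_right (by linarith)
  have h7 : (1 / 2 : ℝ) ^ 4 ≤ tent η ((i0 : ℤ) - N) t ^ 4 :=
    pow_le_pow_left₀ (by norm_num) h6 4
  refine le_trans ?_ h5
  refine le_trans ?_ h7
  norm_num

theorem ideal_mem {D : Type*} [NonUnitalCStarAlgebra D] (p q : D) (G : Unitization ℂ D) :
    ∃ w : D, (w : Unitization ℂ D) = p * G * q := by
  refine ⟨((p : Unitization ℂ D) * G * q).snd, ?_⟩
  ext
  · simp
  · simp

theorem comm4 {U : Type*} [Ring U] {R G : U} (h : Commute G R) :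
    (R * G * R) * (R * G * R) = (R * R) * (G * G) * (R * R) := by
  have h1 : G * R = R * G := h.eq
  have h2 : G * (R * R) = (R * R) * G := (h.mul_right h).eq
  calc (R * G * R) * (R * G * R) = R * (G * (R * R)) * G * R := by noncomm_ring
    _ = R * ((R * R) * G) * G * R := by rw [h2]
    _ = R * R * R * (G * (G * R)) := by noncomm_ring
    _ = R * R * R * (G * (R * G)) := by rw [h1]
    _ = R * R * R * ((G * R) * G) := by noncomm_ring
    _ = R * R * R * ((R * G) * G) := by rw [h1]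
    _ = (R * R) * ((R * R) * G) * G := by noncomm_ring
    _ = (R * R) * (G * (R * R)) * G := by rw [h2]
    _ = (R * R) * G * ((R * R) * G) := by noncomm_ring
    _ = (R * R) * G * (G * (R * R)) := by rw [h2]
    _ = (R * R) * (G * G) * (R * R) := by noncomm_ring

theorem comm5 {U : Type*} [Ring U] {R G x : U} (h : Commute G R) (hx : Commute x R) :
    (R * G * R) * x * (R * G * R) = (R * R) * (G * x * G) * (R * R) := by
  have h1 : G * R = R * G := h.eq
  have h3 : x * R = R * x := hx.eq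
  calc (R * G * R) * x * (R * G * R) = R * (G * R) * (x * R) * (G * R) := by noncomm_ring
    _ = R * (R * G) * (x * R) * (R * G) := by rw [h1]
    _ = (R * R) * G * x * (R * R) * G := by noncomm_ring
    _ = (R * R) * G * x * ((R * R) * G) := by noncomm_ring
    _ = (R * R) * G * x * (G * (R * R)) := by rw [(h.mul_right h).eq]
    _ = (R * R) * (G * x * G) * (R * R) := by noncomm_ring

/-- Part (C) of row D1. -/
theorem partC {D : Type*} [NonUnitalCStarAlgebra D] [PartialOrder D] [StarOrderedRing D]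
    (a r d0 w1 p : D) (_ha : 0 ≤ a) (hr : 0 ≤ r) (hr1 : ‖r‖ ≤ 1) (hw1 : r = a * w1 * a)
    (hd : IsSelfAdjoint d0) (hc : r * d0 = d0 * r) (hp : 0 ≤ p) (hp1 : ‖p‖ ≤ 1)
    (hrp : r * p = p) (hpr : p * r = p) (η : ℝ) (hη : 0 < η) :
    ∃ (m : ℕ) (b : Fin m → D) (s : Fin m → ℝ), (∀ i, 0 ≤ b i ∧ ‖b i‖ ≤ 1 ∧ ∃ w, b i = a * w * a) ∧
      (∀ i, -(η • (b i * b i)) ≤ b i * d0 * b i - s i • (b i * b i) ∧
        b i * d0 * b i - s i • (b i * b i) ≤ η • (b i * b i)) ∧
      ‖∑ i, b i * b i‖ ≤ 2 ∧ p ≤ (16 : ℝ) • ∑ i, (b i * b i) * (b i * b i) := by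
  classical
  obtain ⟨N, hN⟩ := exists_nat_ge (‖d0‖ / η)
  have hN' : ‖d0‖ ≤ N * η := (div_le_iff₀ hη).mp hN
  set x : Unitization ℂ D := (d0 : Unitization ℂ D) with hxdef
  set R : Unitization ℂ D := (r : Unitization ℂ D) with hRdef
  have hx : IsSelfAdjoint x := by
    rw [hxdef]; exact (Unitization.isSelfAdjoint_inr (R := ℂ)).mpr hd
  have hR : 0 ≤ R := Unitization.inr_nonneg_iff.mpr hr
  have hRs : IsSelfAdjoint R := IsSelfAdjoint.of_nonneg hR
  have hR1 : ‖R‖ ≤ 1 := by rw [hRdef, Unitization.norm_inr]; exact hr1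
  have hxR : Commute x R := by
    show x * R = R * x
    rw [hxdef, hRdef, ← Unitization.inr_mul, ← Unitization.inr_mul, hc]
  have hspec : ∀ t ∈ spectrum ℝ x, |t| ≤ N * η := by
    intro t ht
    have h1 := spectrum.norm_le_norm_of_mem ht
    rw [Real.norm_eq_abs, hxdef, Unitization.norm_inr] at h1
    exact h1.trans hN'
  let j : Fin (2 * N + 1) → ℤ := fun i => (i : ℤ) - N
  let G : Fin (2 * N + 1) → Unitization ℂ D := fun i => cfc (tent η (j i)) x
  have hG0 : ∀ i, 0 ≤ G i := fun i => cfc_nonneg fun t _ => tent_nonneg _ _ _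
  have hG1 : ∀ i, ‖G i‖ ≤ 1 := fun i => norm_cfc_le zero_le_one fun t _ => by
    rw [Real.norm_eq_abs, abs_of_nonneg (tent_nonneg _ _ _)]; exact tent_le_one _ _ _
  have hGR : ∀ i, Commute (G i) R := fun i => hxR.cfc_real _
  have hB : ∀ i, ∃ w : D, ((a * w * a : D) : Unitization ℂ D) = R * G i * R := by
    intro i
    obtain ⟨w, hw⟩ := ideal_mem (w1 * a) (a * w1) (G i)
    refine ⟨w, ?_⟩
    rw [Unitization.inr_mul, Unitization.inr_mul, hw, hRdef, hw1]
    simp only [Unitization.inr_mul, mul_assoc]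
  choose w hw using hB
  obtain ⟨b, hbdef⟩ : ∃ b : Fin (2 * N + 1) → D, ∀ i, b i = a * w i * a :=
    ⟨fun i => a * w i * a, fun _ => rfl⟩
  have hb : ∀ i, ((b i : D) : Unitization ℂ D) = R * G i * R := fun i => by rw [hbdef i, hw i]
  have hR2 : IsSelfAdjoint (R * R) := by
    rw [IsSelfAdjoint, star_mul, hRs.star_eq]
  have hR4 : IsSelfAdjoint ((R * R) * (R * R)) := by
    rw [IsSelfAdjoint, star_mul, hR2.star_eq]
  have hb0 : ∀ i, 0 ≤ b i := by
    intro i
    rw [← Unitization.inr_nonneg_iff, hb i]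
    exact hRs.conjugate_nonneg (hG0 i)
  have hbs : ∀ i, IsSelfAdjoint (b i) := fun i => IsSelfAdjoint.of_nonneg (hb0 i)
  have hbb : ∀ i, IsSelfAdjoint (b i * b i) := fun i => by
    rw [IsSelfAdjoint, star_mul, (hbs i).star_eq]
  have hG2 : ∀ i, G i * G i = cfc (fun t => tent η (j i) t ^ 2) x := by
    intro i
    have hcont := (tent_cont η (j i)).continuousOn (s := spectrum ℝ x)
    rw [show (fun t => tent η (j i) t ^ 2) = fun t => tent η (j i) t * tent η (j i) t from
      funext fun t => sq _]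
    exact (cfc_mul (tent η (j i)) (tent η (j i)) x hcont hcont).symm
  have hG4 : ∀ i, (G i * G i) * (G i * G i) = cfc (fun t => tent η (j i) t ^ 4) x := by
    intro i
    have hcont := ((tent_cont η (j i)).pow 2).continuousOn (s := spectrum ℝ x)
    rw [show (fun t => tent η (j i) t ^ 4) =
      fun t => tent η (j i) t ^ 2 * tent η (j i) t ^ 2 from funext fun t => by ring]
    rw [hG2 i]
    exact (cfc_mul _ _ x hcont hcont).symm
  have hGx : ∀ i, G i * x * G i = cfc (fun t => tent η (j i) t ^ 2 * t) x := by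
    intro i
    have hcont := (tent_cont η (j i)).continuousOn (s := spectrum ℝ x)
    rw [show (fun t : ℝ => tent η (j i) t ^ 2 * t) =
      fun t => (tent η (j i) t * t) * tent η (j i) t from funext fun t => by ring]
    rw [cfc_mul (fun t => tent η (j i) t * t) (tent η (j i)) x
      (hcont.mul continuousOn_id) hcont, cfc_mul (tent η (j i)) (fun t => t) x hcont
      continuousOn_id, cfc_id' ℝ x]
  refine ⟨2 * N + 1, b, fun i => (j i : ℝ) * η, fun i => ⟨hb0 i, ?_, w i, hbdef i⟩, ?_, ?_, ?_⟩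
  · have h1 : ‖b i‖ = ‖R * G i * R‖ := by rw [← hb i, Unitization.norm_inr]
    rw [h1]
    calc ‖R * G i * R‖ ≤ ‖R‖ * ‖G i‖ * ‖R‖ :=
          (norm_mul_le _ _).trans (mul_le_mul_of_nonneg_right (norm_mul_le _ _) (norm_nonneg _))
      _ ≤ 1 * 1 * 1 := by gcongr; exact hG1 i
      _ = 1 := by norm_num
  · intro i
    have e1 : ((b i * b i : D) : Unitization ℂ D) = (R * R) * (G i * G i) * (R * R) := by
      rw [Unitization.inr_mul, hb i, comm4 (hGR i)]
    have e2 : ((b i * d0 * b i : D) : Unitization ℂ D) = (R * R) * (G i * x * G i) * (R * R) := by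
      rw [Unitization.inr_mul, Unitization.inr_mul, hb i, comm5 (hGR i) hxR]
    have sd : IsSelfAdjoint (b i * d0 * b i) := by
      rw [IsSelfAdjoint, star_mul, star_mul, (hbs i).star_eq, hd.star_eq, mul_assoc]
    have ss : ∀ c : ℝ, IsSelfAdjoint (c • (b i * b i)) := fun c =>
      (IsSelfAdjoint.all c).smul (hbb i)
    have e3 : (((b i * d0 * b i - ((j i : ℝ) * η) • (b i * b i) : D)) : Unitization ℂ D)
        = (R * R) * (cfc (fun t => tent η (j i) t ^ 2 * t - ((j i : ℝ) * η) * tent η (j i) t ^ 2) x)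
          * (R * R) := by
      rw [Unitization.inr_sub, Unitization.inr_smul, e1, e2, hG2, hGx,
        cfc_sub (fun t => tent η (j i) t ^ 2 * t) (fun t => ((j i : ℝ) * η) * tent η (j i) t ^ 2) x
          ((((tent_cont η (j i)).pow 2).mul continuous_id).continuousOn)
          ((continuous_const.mul ((tent_cont η (j i)).pow 2)).continuousOn),
        cfc_const_mul ((j i : ℝ) * η) (fun t => tent η (j i) t ^ 2) x
          ((tent_cont η (j i)).pow 2).continuousOn]
      simp only [mul_sub, sub_mul, mul_smul_comm, smul_mul_assoc]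
    have e4 : ∀ c : ℝ, ((c • (b i * b i) : D) : Unitization ℂ D)
        = (R * R) * (cfc (fun t => c * tent η (j i) t ^ 2) x) * (R * R) := by
      intro c
      rw [Unitization.inr_smul, e1, hG2, cfc_const_mul c (fun t => tent η (j i) t ^ 2) x
          ((tent_cont η (j i)).pow 2).continuousOn]
      simp only [mul_smul_comm, smul_mul_assoc]
    have key : ∀ t : ℝ, |tent η (j i) t ^ 2 * t - ((j i : ℝ) * η) * tent η (j i) t ^ 2|
        ≤ η * tent η (j i) t ^ 2 := by
      intro t
      have h1 := tent_sq_abs hη (j i) t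
      have h2 : tent η (j i) t ^ 2 * t - ((j i : ℝ) * η) * tent η (j i) t ^ 2
          = (t - j i * η) * tent η (j i) t ^ 2 := by ring
      rw [h2, abs_mul, abs_of_nonneg (sq_nonneg (tent η (j i) t))]
      exact h1
    have cont1 : Continuous fun t : ℝ =>
        tent η (j i) t ^ 2 * t - ((j i : ℝ) * η) * tent η (j i) t ^ 2 :=
      (((tent_cont η (j i)).pow 2).mul continuous_id).sub
        (continuous_const.mul ((tent_cont η (j i)).pow 2))
    have cont2 : ∀ c : ℝ, Continuous fun t : ℝ => c * tent η (j i) t ^ 2 := fun c =>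
      continuous_const.mul ((tent_cont η (j i)).pow 2)
    constructor
    · rw [← neg_smul, ← Unitization.inr_le_iff _ _ (ss _) (sd.sub (ss _)), e3, e4]
      exact hR2.conjugate_le_conjugate (cfc_mono (fun t _ => by
        have := (abs_le.mp (key t)).1; linarith) (cont2 _).continuousOn cont1.continuousOn)
    · rw [← Unitization.inr_le_iff _ _ (sd.sub (ss _)) (ss _), e3, e4]
      exact hR2.conjugate_le_conjugate (cfc_mono (fun t _ => (abs_le.mp (key t)).2)
        cont1.continuousOn (cont2 _).continuousOn)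
  · have e1 : ((∑ i, b i * b i : D) : Unitization ℂ D)
        = (R * R) * (cfc (fun t => ∑ i, tent η (j i) t ^ 2) x) * (R * R) := by
      have : cfc (fun t => ∑ i, tent η (j i) t ^ 2) x = ∑ i, G i * G i := by
        rw [show (fun t => ∑ i, tent η (j i) t ^ 2) = ∑ i, (fun t => tent η (j i) t ^ 2) from by
          ext t; simp]
        rw [cfc_sum_univ (fun i t => tent η (j i) t ^ 2) x
          (fun i => ((tent_cont η (j i)).pow 2).continuousOn)]
        exact Finset.sum_congr rfl fun i _ => (hG2 i).symm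
      rw [this, Finset.mul_sum, Finset.sum_mul]
      have h2 : ((∑ i, b i * b i : D) : Unitization ℂ D)
          = ∑ i, ((b i * b i : D) : Unitization ℂ D) :=
        map_sum (Unitization.inrNonUnitalAlgHom ℂ D) _ _
      rw [h2]
      exact Finset.sum_congr rfl fun i _ => by rw [Unitization.inr_mul, hb i, comm4 (hGR i)]
    rw [← Unitization.norm_inr (𝕜 := ℂ), e1]
    have hRR : ‖R * R‖ ≤ 1 := (norm_mul_le _ _).trans (by nlinarith [norm_nonneg R])
    have hS : ‖cfc (fun t => ∑ i, tent η (j i) t ^ 2) x‖ ≤ 2 := norm_cfc_le (by norm_num) fun t _ => by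
      rw [Real.norm_eq_abs, abs_of_nonneg (Finset.sum_nonneg fun i _ => sq_nonneg _)]
      exact tent_sum_sq η N t
    calc _ ≤ ‖R * R‖ * ‖cfc (fun t => ∑ i, tent η (j i) t ^ 2) x‖ * ‖R * R‖ :=
          (norm_mul_le _ _).trans (mul_le_mul_of_nonneg_right (norm_mul_le _ _) (norm_nonneg _))
      _ ≤ 1 * 2 * 1 := by gcongr
      _ = 2 := by norm_num
  · have hG2R : ∀ i, Commute (G i * G i) (R * R) := fun i =>
      ((hGR i).mul_left (hGR i)).mul_right ((hGR i).mul_left (hGR i))
    have e1 : ((∑ i, (b i * b i) * (b i * b i) : D) : Unitization ℂ D)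
        = ((R * R) * (R * R)) * (cfc (fun t => ∑ i, tent η (j i) t ^ 4) x)
          * ((R * R) * (R * R)) := by
      have : cfc (fun t => ∑ i, tent η (j i) t ^ 4) x = ∑ i, (G i * G i) * (G i * G i) := by
        rw [show (fun t => ∑ i, tent η (j i) t ^ 4) = ∑ i, (fun t => tent η (j i) t ^ 4) from by
          ext t; simp]
        rw [cfc_sum_univ (fun i t => tent η (j i) t ^ 4) x
          (fun i => ((tent_cont η (j i)).pow 4).continuousOn)]
        exact Finset.sum_congr rfl fun i _ => (hG4 i).symm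
      rw [this, Finset.mul_sum, Finset.sum_mul]
      have h2 : ((∑ i, (b i * b i) * (b i * b i) : D) : Unitization ℂ D)
          = ∑ i, (((b i * b i) * (b i * b i) : D) : Unitization ℂ D) :=
        map_sum (Unitization.inrNonUnitalAlgHom ℂ D) _ _
      rw [h2]
      refine Finset.sum_congr rfl fun i _ => ?_
      have e0 : ((b i * b i : D) : Unitization ℂ D) = (R * R) * (G i * G i) * (R * R) := by
        rw [Unitization.inr_mul, hb i, comm4 (hGR i)]
      rw [Unitization.inr_mul, e0, comm4 (hG2R i)]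
    have ps : IsSelfAdjoint p := IsSelfAdjoint.of_nonneg hp
    have ssum : IsSelfAdjoint (∑ i, (b i * b i) * (b i * b i)) := by
      have : ∀ i, star ((b i * b i) * (b i * b i)) = (b i * b i) * (b i * b i) := fun i => by
        rw [star_mul, (hbb i).star_eq]
      rw [IsSelfAdjoint, star_sum]
      exact Finset.sum_congr rfl fun i _ => this i
    set P : Unitization ℂ D := (p : Unitization ℂ D) with hPdef
    have hRP : R * P = P := by rw [hRdef, hPdef, ← Unitization.inr_mul, hrp]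
    have hPR : P * R = P := by rw [hRdef, hPdef, ← Unitization.inr_mul, hpr]
    have hP0 : 0 ≤ P := Unitization.inr_nonneg_iff.mpr hp
    have hP1 : P ≤ 1 := (CStarAlgebra.norm_le_one_iff_of_nonneg P hP0).mp (by
      rw [hPdef, Unitization.norm_inr]; exact hp1)
    have hPP : P = ((R * R) * (R * R)) * P * ((R * R) * (R * R)) := by
      simp only [mul_assoc, hRP]
      simp only [← mul_assoc, hPR]
    have h16 : (1 : Unitization ℂ D) ≤ cfc (fun t => 16 * ∑ i, tent η (j i) t ^ 4) x := by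
      rw [← cfc_const_one ℝ x hx]
      refine cfc_mono (fun t ht => ?_) continuousOn_const
        ((continuous_const.mul (continuous_finsetSum _ fun i _ =>
          (tent_cont η (j i)).pow 4)).continuousOn)
      have := tent_sum_four hη N t (hspec t ht)
      show (1 : ℝ) ≤ 16 * ∑ i, tent η (j i) t ^ 4
      linarith
    rw [← Unitization.inr_le_iff _ _ ps ((IsSelfAdjoint.all (16 : ℝ)).smul ssum),
      Unitization.inr_smul, e1, ← hPdef]
    calc P = ((R * R) * (R * R)) * P * ((R * R) * (R * R)) := hPP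
      _ ≤ ((R * R) * (R * R)) * cfc (fun t => 16 * ∑ i, tent η (j i) t ^ 4) x
            * ((R * R) * (R * R)) := hR4.conjugate_le_conjugate (hP1.trans h16)
      _ = (16 : ℝ) • (((R * R) * (R * R)) * (cfc (fun t => ∑ i, tent η (j i) t ^ 4) x)
            * ((R * R) * (R * R))) := by
          rw [cfc_const_mul (16 : ℝ) (fun t => ∑ i, tent η (j i) t ^ 4) x
            ((continuous_finsetSum _ fun i _ => (tent_cont η (j i)).pow 4)).continuousOn]
          simp only [mul_smul_comm, smul_mul_assoc]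


section PartA

variable {D : Type*} [NonUnitalCStarAlgebra D] [PartialOrder D] [StarOrderedRing D]

/-- `max (t - ε) 0`, as a continuous function -/
theorem quasi_nonneg {a : D} (ha : 0 ≤ a) {t : ℝ} (ht : t ∈ quasispectrum ℝ a) : 0 ≤ t :=
  quasispectrum_nonneg_of_nonneg a ha t ht

/-- Part (A): the cut-off of an element of the hereditary algebra. -/
theorem partA (a : D) (ha : 0 ≤ a) (w : D) (hw : IsSelfAdjoint w) (δ : ℝ) (hδ : 0 < δ) (ρ : ℝ)
    (hρ : 0 < ρ) :
    ∃ d0 r w1 w2 : D, IsSelfAdjoint d0 ∧ d0 = a * w2 * a ∧ ‖d0 - a * w * a‖ ≤ ρ ∧ 0 ≤ r ∧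
      ‖r‖ ≤ 1 ∧ r = a * w1 * a ∧ r * d0 = d0 * r ∧
      ∃ p : D, p = cfcₙ (fun s : ℝ => min (max (2 * s / δ - 1) 0) 1) a ∧ 0 ≤ p ∧ ‖p‖ ≤ 1 ∧
        r * p = p ∧ p * r = p := by
  classical
  set ε : ℝ := min 1 (min (δ / 2) (ρ / (4 * (‖a‖ + 1) * (‖w‖ + 1)))) with hε
  have hna : 0 ≤ ‖a‖ := norm_nonneg a
  have hnw : 0 ≤ ‖w‖ := norm_nonneg w
  have hε0 : 0 < ε := by
    rw [hε]; exact lt_min one_pos (lt_min (by positivity) (by positivity))
  have hε1 : ε ≤ 1 := min_le_left _ _
  have hε2 : ε ≤ δ / 2 := (min_le_right _ _).trans (min_le_left _ _)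
  have hε3 : ε ≤ ρ / (4 * (‖a‖ + 1) * (‖w‖ + 1)) := (min_le_right _ _).trans (min_le_right _ _)
  have hε3' : ε * (4 * (‖a‖ + 1) * (‖w‖ + 1)) ≤ ρ := (le_div_iff₀ (by positivity)).mp hε3
  have has : IsSelfAdjoint a := IsSelfAdjoint.of_nonneg ha
  -- the functions
  let fr : ℝ → ℝ := fun t => min (max (2 * t / ε - 1) 0) 1
  let fp : ℝ → ℝ := fun t => min (max (2 * t / δ - 1) 0) 1
  let fg : ℝ → ℝ := fun t => max (t - ε) 0
  let fh : ℝ → ℝ := fun t => max (t - ε) 0 / max t ε
  let f1 : ℝ → ℝ := fun t => min (max (2 * t / ε - 1) 0) 1 / (max t (ε / 2)) ^ 2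
  have cr : Continuous fr := by show Continuous fun t => _; fun_prop
  have cp : Continuous fp := by show Continuous fun t => _; fun_prop
  have cg : Continuous fg := by show Continuous fun t => _; fun_prop
  have ch : Continuous fh := by
    refine Continuous.div (by fun_prop) (by fun_prop) fun t => ?_
    exact (lt_of_lt_of_le hε0 (le_max_right _ _)).ne'
  have c1 : Continuous f1 := by
    refine Continuous.div (by fun_prop) (by fun_prop) fun t => ?_
    exact (pow_pos (lt_of_lt_of_le (half_pos hε0) (le_max_right _ _)) 2).ne'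
  have zr : fr 0 = 0 := by simp [fr]
  have zp : fp 0 = 0 := by simp [fp]
  have zg : fg 0 = 0 := by simp [fg, hε0.le]
  have zh : fh 0 = 0 := by simp [fh, hε0.le]
  have z1 : f1 0 = 0 := by simp [f1]
  -- pointwise identities
  have i1 : ∀ t, fr t * fg t = fg t := by
    intro t
    by_cases h : t ≤ ε
    · have : fg t = 0 := max_eq_right (by linarith)
      rw [this, mul_zero]
    · have h' : ε < t := not_le.mp h
      have : fr t = 1 := by
        have h2 : 1 ≤ 2 * t / ε - 1 := by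
          rw [le_sub_iff_add_le, le_div_iff₀ hε0]; linarith
        exact min_eq_right (h2.trans (le_max_left _ _))
      rw [this, one_mul]
  have i2 : ∀ t, fr t * fp t = fp t := by
    intro t
    by_cases h : t ≤ δ / 2
    · have : fp t = 0 := by
        have h2 : 2 * t / δ - 1 ≤ 0 := by
          rw [sub_nonpos, div_le_one hδ]; linarith
        show min (max (2 * t / δ - 1) 0) 1 = 0
        rw [max_eq_right h2]; simp
      rw [this, mul_zero]
    · have h' : δ / 2 < t := not_le.mp h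
      have : fr t = 1 := by
        have h2 : 1 ≤ 2 * t / ε - 1 := by
          rw [le_sub_iff_add_le, le_div_iff₀ hε0]; linarith
        exact min_eq_right (h2.trans (le_max_left _ _))
      rw [this, one_mul]
  have i3 : ∀ t, t * fh t = fg t := by
    intro t
    by_cases h : t ≤ ε
    · have h0 : max (t - ε) 0 = 0 := max_eq_right (by linarith)
      show t * (max (t - ε) 0 / max t ε) = max (t - ε) 0
      rw [h0]; simp
    · have h' : ε < t := not_le.mp h
      show t * (max (t - ε) 0 / max t ε) = max (t - ε) 0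
      rw [max_eq_left h'.le]
      have : t ≠ 0 := (hε0.trans h').ne'
      field_simp
  have i4 : ∀ t, t * f1 t * t = fr t := by
    intro t
    by_cases h : t ≤ ε / 2
    · have h2 : 2 * t / ε - 1 ≤ 0 := by
        rw [sub_nonpos, div_le_one hε0]; linarith
      have h0 : min (max (2 * t / ε - 1) 0) 1 = 0 := by rw [max_eq_right h2]; simp
      show t * (min (max (2 * t / ε - 1) 0) 1 / (max t (ε / 2)) ^ 2) * t
        = min (max (2 * t / ε - 1) 0) 1
      rw [h0]; simp
    · have h' : ε / 2 < t := not_le.mp h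
      show t * (min (max (2 * t / ε - 1) 0) 1 / (max t (ε / 2)) ^ 2) * t
        = min (max (2 * t / ε - 1) 0) 1
      rw [max_eq_left h'.le]
      have : t ≠ 0 := ((half_pos hε0).trans h').ne'
      field_simp
  have fr0 : ∀ t, 0 ≤ fr t := fun t => le_min (le_max_right _ _) zero_le_one
  have fr1 : ∀ t, fr t ≤ 1 := fun t => min_le_right _ _
  have fp0 : ∀ t, 0 ≤ fp t := fun t => le_min (le_max_right _ _) zero_le_one
  have fp1 : ∀ t, fp t ≤ 1 := fun t => min_le_right _ _
  -- the elements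
  set r : D := cfcₙ fr a with hr
  set p : D := cfcₙ fp a with hp
  set g : D := cfcₙ fg a with hg
  set h : D := cfcₙ fh a with hh
  set w1 : D := cfcₙ f1 a with hw1
  have mulE : ∀ u v : ℝ → ℝ, Continuous u → Continuous v → u 0 = 0 → v 0 = 0 →
      cfcₙ u a * cfcₙ v a = cfcₙ (fun t => u t * v t) a := fun u v cu cv zu zv =>
    (cfcₙ_mul u v a cu.continuousOn zu cv.continuousOn zv).symm
  have hid : cfcₙ (fun t : ℝ => t) a = a := cfcₙ_id' ℝ a
  have rg : r * g = g := by
    rw [hr, hg, mulE fr fg cr cg zr zg]; exact congrArg (fun f => cfcₙ f a) (funext i1)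
  have gr : g * r = g := by
    rw [← (cfcₙ_commute_cfcₙ fr fg a).eq]; exact rg
  have rp : r * p = p := by
    rw [hr, hp, mulE fr fp cr cp zr zp]; exact congrArg (fun f => cfcₙ f a) (funext i2)
  have pr : p * r = p := by
    rw [← (cfcₙ_commute_cfcₙ fr fp a).eq]; exact rp
  have ah : a * h = g := by
    have : cfcₙ (fun t : ℝ => t) a * cfcₙ fh a = cfcₙ fg a := by
      rw [mulE (fun t => t) fh continuous_id ch rfl zh]
      exact congrArg (fun f => cfcₙ f a) (funext i3)
    rw [hid] at this; exact this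
  have ha' : h * a = g := by
    have h2 := (cfcₙ_commute_cfcₙ fh (fun t : ℝ => t) a).eq
    rw [hid] at h2
    rw [h2]; exact ah
  have awa : a * w1 * a = r := by
    have : cfcₙ (fun t : ℝ => t) a * cfcₙ f1 a * cfcₙ (fun t : ℝ => t) a = cfcₙ fr a := by
      rw [mulE (fun t => t) f1 continuous_id c1 rfl z1,
        mulE (fun t => t * f1 t) (fun t => t) (continuous_id.mul c1) continuous_id
          (by simp) rfl]
      exact congrArg (fun f => cfcₙ f a) (funext i4)
    rw [hid] at this; exact this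
  have gs : IsSelfAdjoint g := IsSelfAdjoint.of_nonneg (cfcₙ_nonneg fun t _ => le_max_right _ _)
  have r0 : 0 ≤ r := cfcₙ_nonneg fun t _ => fr0 t
  have p0 : 0 ≤ p := cfcₙ_nonneg fun t _ => fp0 t
  have r1 : ‖r‖ ≤ 1 := norm_cfcₙ_le fun t _ => by
    rw [Real.norm_eq_abs, abs_of_nonneg (fr0 t)]; exact fr1 t
  have p1 : ‖p‖ ≤ 1 := norm_cfcₙ_le fun t _ => by
    rw [Real.norm_eq_abs, abs_of_nonneg (fp0 t)]; exact fp1 t
  have ga : ‖g - a‖ ≤ ε := by
    have : g - a = cfcₙ (fun t => fg t - t) a := by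
      rw [cfcₙ_sub fg (fun t => t) a cg.continuousOn zg continuousOn_id rfl, hid]
    rw [this]
    refine norm_cfcₙ_le fun t ht => ?_
    have ht0 : 0 ≤ t := quasi_nonneg ha ht
    rw [Real.norm_eq_abs, abs_le]
    show -ε ≤ max (t - ε) 0 - t ∧ max (t - ε) 0 - t ≤ ε
    constructor
    · have := le_max_left (t - ε) 0; linarith
    · rcases le_total (t - ε) 0 with h1 | h1
      · rw [max_eq_right h1]; linarith
      · rw [max_eq_left h1]; linarith
  have gn : ‖g‖ ≤ ‖a‖ + 1 := by
    have : g = (g - a) + a := by abel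
    calc ‖g‖ = ‖(g - a) + a‖ := by rw [← this]
      _ ≤ ‖g - a‖ + ‖a‖ := norm_add_le _ _
      _ ≤ ‖a‖ + 1 := by linarith
  refine ⟨g * w * g, r, w1, h * w * h, ?_, ?_, ?_, r0, r1, awa.symm, ?_, p, rfl, p0, p1, rp, pr⟩
  · rw [IsSelfAdjoint, star_mul, star_mul, gs.star_eq, hw.star_eq, mul_assoc]
  · calc g * w * g = (a * h) * w * (h * a) := by rw [ah, ha']
      _ = a * (h * w * h) * a := by simp only [mul_assoc]
  · have e : g * w * g - a * w * a = (g - a) * w * g + a * w * (g - a) := by noncomm_ring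
    rw [e]
    have b1 : ‖(g - a) * w * g‖ ≤ ε * ‖w‖ * (‖a‖ + 1) :=
      calc ‖(g - a) * w * g‖ ≤ ‖g - a‖ * ‖w‖ * ‖g‖ :=
            (norm_mul_le _ _).trans (mul_le_mul_of_nonneg_right (norm_mul_le _ _) (norm_nonneg _))
        _ ≤ ε * ‖w‖ * (‖a‖ + 1) := by gcongr
    have b2 : ‖a * w * (g - a)‖ ≤ ‖a‖ * ‖w‖ * ε :=
      calc ‖a * w * (g - a)‖ ≤ ‖a‖ * ‖w‖ * ‖g - a‖ :=
            (norm_mul_le _ _).trans (mul_le_mul_of_nonneg_right (norm_mul_le _ _) (norm_nonneg _))
        _ ≤ ‖a‖ * ‖w‖ * ε := by gcongr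
    have b3 : 0 ≤ ε * ‖w‖ * ‖a‖ := by positivity
    have b4 : 0 ≤ ε * ‖w‖ := by positivity
    have b5 : 0 ≤ ε * ‖a‖ := by positivity
    calc ‖(g - a) * w * g + a * w * (g - a)‖ ≤ ‖(g - a) * w * g‖ + ‖a * w * (g - a)‖ :=
          norm_add_le _ _
      _ ≤ ε * ‖w‖ * (‖a‖ + 1) + ‖a‖ * ‖w‖ * ε := add_le_add b1 b2
      _ ≤ ε * (4 * (‖a‖ + 1) * (‖w‖ + 1)) := by nlinarith
      _ ≤ ρ := hε3'
  · calc r * (g * w * g) = (r * g) * w * g := by simp only [mul_assoc]
      _ = g * w * g := by rw [rg]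
      _ = g * w * (g * r) := by rw [gr]
      _ = g * w * g * r := by simp only [mul_assoc]

end PartA


open Vale.Agent.P133.R2.H307

universe u

/-- Row D1 (the tent decomposition of a cut-off element of the hereditary algebra). -/
def RowD1 : Prop := ∀ (D : Type u) [NonUnitalCStarAlgebra D] [PartialOrder D] [StarOrderedRing D]
  (a : D), 0 ≤ a → ∀ δ : ℝ, 0 < δ → ∀ d ∈ herS a, ∀ ρ : ℝ, 0 < ρ → ∃ d0 ∈ herS a, ‖d0 - d‖ ≤ ρ ∧
  ∀ η : ℝ, 0 < η → ∃ (m : ℕ) (b : Fin m → D) (s : Fin m → ℝ),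
    (∀ i, 0 ≤ b i ∧ ‖b i‖ ≤ 1 ∧ ∃ w, b i = a * w * a) ∧
    (∀ i, -(η • (b i * b i)) ≤ b i * d0 * b i - s i • (b i * b i) ∧
      b i * d0 * b i - s i • (b i * b i) ≤ η • (b i * b i)) ∧
    ‖∑ i, b i * b i‖ ≤ 2 ∧ ramp δ a ≤ (16 : ℝ) • ∑ i, (b i * b i) * (b i * b i)

theorem rowD1 : RowD1.{u} := by
  intro D _ _ _ a ha δ hδ d hd ρ hρ
  have has : IsSelfAdjoint a := IsSelfAdjoint.of_nonneg ha
  obtain ⟨hd1, hd2⟩ := Submodule.mem_inf.mp hd
  have hds : IsSelfAdjoint d := hd2
  have hd3 : d ∈ closure ((LinearMap.range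
      ((LinearMap.mulLeft ℝ a).comp (LinearMap.mulRight ℝ a)) : Submodule ℝ D) : Set D) := hd1
  obtain ⟨y, hy, hyd⟩ := Metric.mem_closure_iff.mp hd3 (ρ / 2) (half_pos hρ)
  obtain ⟨w, rfl⟩ := hy
  have hwv : ((LinearMap.mulLeft ℝ a).comp (LinearMap.mulRight ℝ a)) w = a * w * a := by
    simp [mul_assoc]
  rw [hwv, dist_eq_norm] at hyd
  set w' : D := (1 / 2 : ℝ) • (w + star w) with hw'
  have hw's : IsSelfAdjoint w' := by
    rw [IsSelfAdjoint, hw', star_smul, star_add, star_star, add_comm (star w) w]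
    simp
  have hnear : ‖a * w' * a - d‖ ≤ ρ / 2 := by
    have e1 : a * w' * a - d = (1 / 2 : ℝ) • (-(d - a * w * a)) +
        (1 / 2 : ℝ) • (-(star (d - a * w * a))) := by
      have e2 : star (d - a * w * a) = d - a * star w * a := by
        rw [star_sub, star_mul, star_mul, has.star_eq, hds.star_eq, mul_assoc]
      rw [e2, hw']
      simp only [mul_smul_comm, smul_mul_assoc, mul_add, add_mul]
      module
    rw [e1]
    refine (norm_add_le _ _).trans ?_
    rw [norm_smul, norm_smul, norm_neg, norm_neg, norm_star]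
    have : ‖(1 / 2 : ℝ)‖ = 1 / 2 := by norm_num
    rw [this]; linarith
  obtain ⟨d0, r, w1, w2, hd0s, hd0, hd0n, hr, hr1, hrw, hrd, p, hp, hp0, hp1, hrp, hpr⟩ :=
    partA a ha w' hw's δ hδ (ρ / 2) (half_pos hρ)
  refine ⟨d0, Submodule.mem_inf.mpr ⟨?_, hd0s⟩, ?_, fun η hη => ?_⟩
  · refine Submodule.le_topologicalClosure _ ⟨w2, ?_⟩
    rw [hd0]; simp [mul_assoc]
  · have : d0 - d = (d0 - a * w' * a) + (a * w' * a - d) := by abel
    rw [this]
    exact (norm_add_le _ _).trans (by linarith)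
  · obtain ⟨m, b, s, h1, h2, h3, h4⟩ :=
      partC a r d0 w1 p ha hr hr1 hrw hd0s hrd hp0 hp1 hrp hpr η hη
    refine ⟨m, b, s, h1, h2, h3, ?_⟩
    have : ramp δ a = p := by rw [hp, ramp]
    rw [this]; exact h4

end Vale.Agent.P133.R2.H342
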