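import Vale.Agent.P133.R2.H307.Spec
import Mathlib.Analysis.CStarAlgebra.ApproximateUnit
import Mathlib.Topology.PartitionOfUnity

/-!
P133 (helper342): row L, membership in a closed ideal of a section algebra is a local property.
-/

namespace Vale.Agent.P133.R2.H307

open Vale.Agent.P133.H832 Filter Topology

universe u v

/-- an element acts nearly as a left unit on `p` -/
theorem exists_almost_unit {A : Type u} [NonUnitalCStarAlgebra A] (p : A) {δ : ℝ} (hδ : 0 < δ) :
    ∃ e : A, ‖p - e * p‖ ≤ δ := by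
  let _ : PartialOrder A := CStarAlgebra.spectralOrder A
  have _ : StarOrderedRing A := CStarAlgebra.spectralOrderedRing A
  have h := (CStarAlgebra.increasingApproximateUnit A).toIsApproximateUnit
  have h1 : Tendsto (fun e : A => e * p) (CStarAlgebra.approximateUnit A) (𝓝 p) :=
    h.tendsto_mul_right p
  have h2 : ∀ᶠ e in CStarAlgebra.approximateUnit A, e * p ∈ Metric.ball p δ :=
    h1.eventually (Metric.ball_mem_nhds p hδ)
  obtain ⟨e, he⟩ := h2.exists
  refine ⟨e, ?_⟩
  have h3 := Metric.mem_ball'.1 he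
  rw [dist_eq_norm] at h3
  exact h3.le

/-- closed ideals are stable under multipliers of the base -/
theorem mult_mem {X : Type v} [TopologicalSpace X] {B : X → Type u}
    [∀ t, NonUnitalCStarAlgebra (B t)] {A : Type u} [NonUnitalCStarAlgebra A]
    {π : ∀ t, A →⋆ₙₐ[ℂ] B t} (hπ : IsField π) {P : Submodule ℂ A} (hP : IsClosedIdeal P)
    (f : C(X, ℝ)) (hf : ∀ t, 0 ≤ f t ∧ f t ≤ 1) {p b : A} (hp : p ∈ P)
    (hb : ∀ t, π t b = (f t : ℂ) • π t p) : b ∈ P := by
  obtain ⟨_, hnorm, _, hmul⟩ := hπ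
  have hcl : b ∈ closure (P : Set A) := by
    rw [Metric.mem_closure_iff]
    intro ε hε
    obtain ⟨e, he⟩ := exists_almost_unit p (half_pos hε)
    obtain ⟨g, hg⟩ := hmul f hf e
    refine ⟨g * p, (hP.2 g p hp).1, ?_⟩
    rw [dist_eq_norm]
    refine lt_of_le_of_lt (hnorm _ (ε / 2) (half_pos hε).le fun t => ?_) (half_lt_self hε)
    have h1 : π t (b - g * p) = (f t : ℂ) • π t (p - e * p) := by
      rw [map_sub, map_mul, hb, hg, map_sub, map_mul, smul_sub, smul_mul_assoc]
    rw [h1, norm_smul]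
    have h2 : ‖(f t : ℂ)‖ ≤ 1 := by
      rw [Complex.norm_real, Real.norm_eq_abs, abs_of_nonneg (hf t).1]
      exact (hf t).2
    have h3 : ‖π t (p - e * p)‖ ≤ ε / 2 :=
      (NonUnitalStarAlgHom.norm_apply_le (π t) _).trans he
    calc ‖(f t : ℂ)‖ * ‖π t (p - e * p)‖ ≤ 1 * (ε / 2) :=
          mul_le_mul h2 h3 (norm_nonneg _) zero_le_one
      _ = ε / 2 := one_mul _
  rwa [hP.1.closure_eq] at hcl

theorem specLoc : SpecLoc.{u, v} := by
  intro X _ _ _ B _ A _ π hπ P hP c hc
  have hπ' := hπ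
  obtain ⟨_, hnorm, hcont, hmul⟩ := hπ'
  have hcl : c ∈ closure (P : Set A) := by
    rw [Metric.mem_closure_iff]
    intro ε hε
    choose p hpP hp using fun t => hc t (ε / 2) (half_pos hε)
    have hopen : ∀ t, IsOpen {s : X | ‖π s (c - p t)‖ < ε / 2} := fun t =>
      isOpen_lt (hcont (c - p t)) continuous_const
    obtain ⟨I, hI⟩ := isCompact_univ.elim_finite_subcover
      (fun t : X => {s : X | ‖π s (c - p t)‖ < ε / 2}) hopen
      (fun s _ => Set.mem_iUnion.2 ⟨s, hp s⟩)
    have hI' : (Set.univ : Set X) ⊆ ⋃ i : I, {s : X | ‖π s (c - p i)‖ < ε / 2} := by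
      intro s hs
      obtain ⟨t, ht⟩ := Set.mem_iUnion.1 (hI hs)
      obtain ⟨htI, hts⟩ := Set.mem_iUnion.1 ht
      exact Set.mem_iUnion.2 ⟨⟨t, htI⟩, hts⟩
    obtain ⟨φ, hφ⟩ := PartitionOfUnity.exists_isSubordinate isClosed_univ
      (fun i : I => {s : X | ‖π s (c - p i)‖ < ε / 2}) (fun i => hopen i) hI'
    have h01 : ∀ (i : I) (t : X), 0 ≤ φ i t ∧ φ i t ≤ 1 := fun i t => ⟨φ.nonneg i t, φ.le_one i t⟩
    choose q hq using fun i : I => hmul (φ i) (h01 i) (p i)
    have hqP : ∀ i, q i ∈ P := fun i => mult_mem hπ hP (φ i) (h01 i) (hpP i) (hq i)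
    refine ⟨∑ i, q i, P.sum_mem fun i _ => hqP i, ?_⟩
    rw [dist_eq_norm]
    refine lt_of_le_of_lt (hnorm _ (ε / 2) (half_pos hε).le fun t => ?_) (half_lt_self hε)
    have hsum : ∑ i, φ i t = 1 := by
      rw [← finsum_eq_sum_of_fintype]
      exact φ.sum_eq_one (Set.mem_univ t)
    have h1 : π t (c - ∑ i, q i) = ∑ i, (φ i t : ℂ) • π t (c - p i) := by
      have h2 : π t c = ∑ i, (φ i t : ℂ) • π t c := by
        rw [← Finset.sum_smul, ← Complex.ofReal_sum, hsum, Complex.ofReal_one, one_smul]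
      rw [map_sub, map_sum]
      conv_lhs => rw [h2]
      rw [← Finset.sum_sub_distrib]
      refine Finset.sum_congr rfl fun i _ => ?_
      rw [hq, map_sub, smul_sub]
    rw [h1]
    refine (norm_sum_le _ _).trans ?_
    calc ∑ i, ‖(φ i t : ℂ) • π t (c - p i)‖ ≤ ∑ i, φ i t * (ε / 2) := by
          refine Finset.sum_le_sum fun i _ => ?_
          rw [norm_smul, Complex.norm_real, Real.norm_eq_abs, abs_of_nonneg (h01 i t).1]
          by_cases h0 : φ i t = 0
          · rw [h0, zero_mul, zero_mul]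
          · have h3 : t ∈ tsupport (φ i) := subset_tsupport _ h0
            have h4 : ‖π t (c - p i)‖ < ε / 2 := hφ i h3
            exact mul_le_mul_of_nonneg_left h4.le (h01 i t).1
      _ = ε / 2 := by rw [← Finset.sum_mul, hsum, one_mul]
  rwa [hP.1.closure_eq] at hcl

end Vale.Agent.P133.R2.H307
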